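import Vale.Agent.P096.Final

namespace Vale.Agent.Results.P096.StrongKK

universe u

section Defs

variable {H : Type u} [NormedAddCommGroup H] [InnerProductSpace ℂ H] [CompleteSpace H]

/-- The closed operator norm unit ball of a von Neumann algebra. -/
def unitBall (M : VonNeumannAlgebra H) : Set (H →L[ℂ] H) := {x | x ∈ M ∧ ‖x‖ ≤ 1}

/-- The Kadison-Kastler distance: Hausdorff distance of the unit balls in operator norm. -/
noncomputable def kkDist (M N : VonNeumannAlgebra H) : ℝ :=
  Metric.hausdorffDist (unitBall M) (unitBall N)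

/-- The operator `u x u*`. -/
noncomputable def ad (u x : H →L[ℂ] H) : H →L[ℂ] H := u * x * star u

/-- `u M u* = N`. -/
def Conjugates (u : H →L[ℂ] H) (M N : VonNeumannAlgebra H) : Prop :=
  ad u '' (M : Set (H →L[ℂ] H)) = (N : Set (H →L[ℂ] H))

/-- `u` is unitary. -/
def IsUnitary (u : H →L[ℂ] H) : Prop := u ∈ unitary (H →L[ℂ] H)

/-- The operator norm distance from `u` to the identity. -/
noncomputable def distOne (u : H →L[ℂ] H) : ℝ := ‖u - 1‖

end Defs

/-- The strong Kadison-Kastler conjecture. -/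
theorem result (ε : ℝ) (hε : 0 < ε) : ∃ δ : ℝ, 0 < δ ∧
    ∀ (H : Type u) [NormedAddCommGroup H] [InnerProductSpace ℂ H] [CompleteSpace H]
      (M N : VonNeumannAlgebra H), kkDist M N < δ →
      ∃ u : H →L[ℂ] H, IsUnitary u ∧ Conjugates u M N ∧ distOne u < ε := by
  obtain ⟨δ, hδ, h⟩ := Vale.Agent.P096.kk_final Vale.Agent.P096.kk0 ε hε
  exact ⟨δ, hδ, fun H _ _ _ M N => h H M N trivial⟩

end Vale.Agent.Results.P096.StrongKK
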